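import Vale.Agent.P109O.Seq

open MeasureTheory Filter Topology Set
open scoped ContDiff

namespace Vale.Agent.P109O

noncomputable def JZ (q : ℕ) (a : Cj) (z : V) : ZMod q := ((⌊q * (a.g z).2⌋ : ℤ) : ZMod q)

theorem far_int {δ t : ℝ} (n : ℤ) : far δ (t + n) ↔ far δ t := by
  rw [far, far, AddCircle.coe_add, coe_int, add_zero]

theorem JZ_io (q : ℕ) (a : Cj) (z : V) (m : ℤ × ℤ) : JZ q a (z + io m) = JZ q a z := by
  obtain ⟨m', h⟩ := a.ng.per m
  simp only [JZ, h]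
  simp only [io, Prod.snd_add, mul_add]
  rw [show (q : ℝ) * (m'.2 : ℝ) = ((q * m'.2 : ℤ) : ℝ) by push_cast; ring, Int.floor_add_intCast]
  simp

theorem good_io (q q' : ℕ) (δ : ℝ) (z : V) (m : ℤ × ℤ) :
    good q q' δ (z + io m) ↔ good q q' δ z := by
  simp only [good, io, Prod.fst_add, Prod.snd_add, mul_add]
  rw [show (q : ℝ) * (m.1 : ℝ) = ((q * m.1 : ℤ) : ℝ) by push_cast; ring,
    show (q' : ℝ) * (m.2 : ℝ) = ((q' * m.2 : ℤ) : ℝ) by push_cast; ring, far_int, far_int, far_int]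

theorem good_g_io (q q' : ℕ) (δ : ℝ) (a : Cj) (z : V) (m : ℤ × ℤ) :
    good q q' δ (a.g (z + io m)) ↔ good q q' δ (a.g z) := by
  obtain ⟨m', h⟩ := a.ng.per m
  rw [h, good_io]

theorem JZ_tr {q : ℕ} (hq : 0 < q) (a : Cj) (z : V) : JZ q a (a.tr (vv q) z) = JZ q a z + 1 := by
  have : (q : ℝ) ≠ 0 := by positivity
  simp only [JZ, a.g_tr, vv, Prod.snd_add, mul_add, mul_one_div_cancel this, Int.floor_add_one]
  simp

theorem JZ_loc {q q' : ℕ} {δ : ℝ} (hδ : 0 < δ) (a : Cj) {z : V} (h : good q q' δ (a.g z)) :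
    ∀ᶠ w in 𝓝 z, JZ q' a w = JZ q' a z := by
  have hc : Continuous fun w => (q' : ℝ) * (a.g w).2 :=
    continuous_const.mul (continuous_snd.comp a.ng.smooth.continuous)
  filter_upwards [Metric.tendsto_nhds.1 (hc.tendsto z) δ hδ] with w hw
  have := h.2.2.floor_add (e := q' * (a.g w).2 - q' * (a.g z).2) (Real.dist_eq _ _ ▸ hw.le)
  rw [add_sub_cancel] at this
  simp only [JZ, this]

theorem Step.floor {n q q' : ℕ} {a a' : Cj} (h : Step n q q' a a') (hq : 0 < q) {z : V}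
    (hz : good q q' (dl n) (a'.g z)) :
    ⌊q * (a.g z).2⌋ = q * ⌊(a'.g z).1⌋ + ⌊q' * (a'.g z).2⌋ := by
  have : (q : ℝ) ≠ 0 := by positivity
  rw [h.rel z hz]
  simp only
  rw [mul_add, mul_div_cancel₀ _ this, Int.floor_add_intCast, cc]
  ring

theorem Step.compat {n q q' : ℕ} {a a' : Cj} (h : Step n q q' a a') (hq : 0 < q) (hd : q ∣ q')
    {z : V} (hz : good q q' (dl n) (a'.g z)) : (ZMod.cast (JZ q' a' z) : ZMod q) = JZ q a z := by
  rw [JZ, JZ, h.floor hq hz, ZMod.cast_intCast hd]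
  simp

theorem JZ_eq {q : ℕ} {a : Cj} {z w : V} (h : JZ q a z = JZ q a w) :
    ∃ k : ℤ, ⌊q * (a.g z).2⌋ = ⌊q * (a.g w).2⌋ + q * k := by
  obtain ⟨k, hk⟩ := (ZMod.intCast_eq_intCast_iff_dvd_sub _ _ _).1 h.symm
  exact ⟨k, by linarith⟩

/-- equal tower indices force nearby first coordinates -/
theorem Step.near {n q q' : ℕ} {a a' : Cj} (h : Step n q q' a a') (hq' : 0 < q') {z w : V}
    (hz : good q q' (dl n) (a'.g z)) (hw : good q q' (dl n) (a'.g w))
    (e : JZ q' a' z = JZ q' a' w) :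
    ‖(((a.g z).1 - (a.g w).1 : ℝ) : UnitAddCircle)‖ * q ≤ dl n := by
  obtain ⟨k, hk⟩ := JZ_eq e
  have hq0 : (0 : ℝ) < q' := by positivity
  have hq1 : (0 : ℝ) ≤ q := by positivity
  have h1 : |(a.g z).1 - (a.g w).1 - k| ≤ (1 + q) / q' := by
    rw [h.rel z hz, h.rel w hw]
    simp only
    have b1 := cc_bd (q := q) (a'.g z).1
    have b2 := cc_bd (q := q) (a'.g w).1
    have c1 : (0 : ℝ) ≤ cc q (a'.g z).1 := by exact_mod_cast b1.1
    have c2 : (cc q (a'.g z).1 : ℝ) ≤ q := by exact_mod_cast b1.2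
    have c3 : (0 : ℝ) ≤ cc q (a'.g w).1 := by exact_mod_cast b2.1
    have c4 : (cc q (a'.g w).1 : ℝ) ≤ q := by exact_mod_cast b2.2
    have d1 := Int.floor_le (q' * (a'.g z).2)
    have d2 := Int.lt_floor_add_one (q' * (a'.g z).2)
    have d3 := Int.floor_le (q' * (a'.g w).2)
    have d4 := Int.lt_floor_add_one (q' * (a'.g w).2)
    rw [hk] at d1 d2
    push_cast at d1 d2
    rw [le_div_iff₀ hq0, ← abs_of_pos hq0, ← abs_mul, abs_of_pos hq0,
      show ((a'.g z).2 - (cc q (a'.g z).1 : ℝ) / q' - ((a'.g w).2 - (cc q (a'.g w).1 : ℝ) / q') - k)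
        * q' = q' * (a'.g z).2 - cc q (a'.g z).1 - q' * (a'.g w).2 + cc q (a'.g w).1 - q' * k by
        field_simp; ring, abs_le]
    constructor <;> linarith
  calc _ ≤ (1 + q : ℝ) / q' * q := mul_le_mul_of_nonneg_right ((norm_le_int _ k).trans h1) hq1
    _ ≤ _ := by rw [div_mul_eq_mul_div, div_le_iff₀ hq0]; exact h.gr

theorem cc_eq {q : ℕ} (hq : 0 < q) {δ x y : ℝ} (h1 : far δ (q * y)) (h2 : far δ y)
    (h : ‖((x - y : ℝ) : UnitAddCircle)‖ * q ≤ δ) : cc q x = cc q y := by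
  rw [UnitAddCircle.norm_eq] at h
  set k := round (x - y)
  have hq1 : (1 : ℝ) ≤ q := by exact_mod_cast hq
  have a0 := abs_nonneg (x - y - k)
  have a1 := h2.floor_add (e := x - y - k) (by nlinarith)
  have a2 := h1.floor_add (e := q * (x - y - k))
    (by rw [abs_mul, abs_of_nonneg (by linarith)]; linarith)
  rw [show y + (x - y - k) = x - k by ring, Int.floor_sub_intCast] at a1
  rw [show q * y + q * (x - y - k) = q * x - ((q * k : ℤ) : ℝ) by push_cast; ring,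
    Int.floor_sub_intCast] at a2
  rw [cc, cc, ← a1, ← a2]
  ring

theorem Step.shift {n q q' : ℕ} {a a' : Cj} (h : Step n q q' a a') (hq : 0 < q) (hd : q ∣ q')
    {z w : V} (hz : good q q' (dl n) (a'.g z)) (hw : good q q' (dl n) (a'.g w))
    (e : JZ q' a' z = JZ q' a' w)
    (hn : ‖(((a'.g z).1 - (a'.g w).1 : ℝ) : UnitAddCircle)‖ * q ≤ dl n) :
    (a.g z).1 - (a.g w).1 = (a'.g z).2 - (a'.g w).2 ∧
      (((a.g z).2 - (a.g w).2 : ℝ) : UnitAddCircle) = ((a'.g z).1 - (a'.g w).1 : ℝ) := by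
  obtain ⟨k, hk⟩ := JZ_eq e
  obtain ⟨r, rfl⟩ := hd
  have hq0 : (q : ℝ) ≠ 0 := by positivity
  rw [h.rel z hz, h.rel w hw, cc_eq hq hw.1 hw.2.1 hn, hk]
  refine ⟨by ring, ?_⟩
  simp only
  rw [← add_zero (((a'.g z).1 - (a'.g w).1 : ℝ) : UnitAddCircle), ← coe_int (r * k),
    ← AddCircle.coe_add]
  congr 1
  push_cast
  field_simp
  ring

theorem inj_lift {q : ℕ → ℕ} (hq : ∀ n, 0 < q n) (hd : ∀ n, q n ∣ q (n + 1)) {h : ℕ → Cj}
    (hs : ∀ n, Step n (q n) (q (n + 1)) (h n) (h (n + 1))) {l : ℕ} {z w : V}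
    (hz : ∀ n ≥ l, good (q n) (q (n + 1)) (dl n) ((h (n + 1)).g z))
    (hw : ∀ n ≥ l, good (q n) (q (n + 1)) (dl n) ((h (n + 1)).g w))
    (e : ∀ n ≥ l, JZ (q n) (h n) z = JZ (q n) (h n) w) : pr z = pr w := by
  set x : ℕ → UnitAddCircle := fun n => ((((h n).g z).1 - ((h n).g w).1 : ℝ) : UnitAddCircle)
    with hx
  set y : ℕ → UnitAddCircle := fun n => ((((h n).g z).2 - ((h n).g w).2 : ℝ) : UnitAddCircle)
    with hy
  have h1 : ∀ n ≥ l, ‖x n‖ * q n ≤ dl n := fun n hn =>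
    (hs n).near (hq _) (hz n hn) (hw n hn) (e (n + 1) (by omega))
  have h2 : ∀ n ≥ l, x n = y (n + 1) ∧ y n = x (n + 1) := by
    intro n hn
    have a1 : (q n : ℝ) ≤ q (n + 1) := by exact_mod_cast Nat.le_of_dvd (hq _) (hd n)
    have := (hs n).shift (hq n) (hd n) (hz n hn) (hw n hn) (e (n + 1) (by omega))
      (((mul_le_mul_of_nonneg_left a1 (norm_nonneg _)).trans (h1 (n + 1) (by omega))).trans
        (dl_anti n))
    exact ⟨congrArg _ this.1, this.2⟩
  have h3 : ∀ n ≥ l, ∀ j, x n = x (n + 2 * j) := by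
    intro n hn j
    induction j with
    | zero => rfl
    | succ j ih => rw [ih, (h2 _ (by omega)).1, (h2 _ (by omega)).2]; rfl
  have h4 : ∀ n ≥ l, x n = 0 := by
    intro n hn
    rw [← norm_le_zero_iff]
    refine ge_of_tendsto' (tendsto_pow_atTop_nhds_zero_of_lt_one (r := (1 / 2 : ℝ)) (by norm_num)
      (by norm_num)) fun j => ?_
    have a1 : (1 : ℝ) ≤ q (n + 2 * j) := by exact_mod_cast hq _
    have a2 := h1 (n + 2 * j) (by omega)
    have a3 : dl (n + 2 * j) ≤ (1 / 2) ^ j :=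
      pow_le_pow_of_le_one (by norm_num) (by norm_num) (by omega)
    rw [h3 n hn j]
    nlinarith [norm_nonneg (x (n + 2 * j))]
  have h5 : pr ((h l).g z) = pr ((h l).g w) := by
    have a1 := h4 l le_rfl
    have a2 := (h2 l le_rfl).2.trans (h4 (l + 1) (by omega))
    simp only [hx, hy, AddCircle.coe_sub, sub_eq_zero] at a1 a2
    exact Prod.ext a1 a2
  rw [← (h l).fg z, ← (h l).fg w, ← ind_pr (h l).nf.per, ← ind_pr (h l).nf.per, h5]

theorem prob1 : IsProbabilityMeasure (volume : Measure UnitAddCircle) := ⟨by simp⟩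

theorem vol_bad {q q' : ℕ} (hq : 0 < q) (hq' : 0 < q') (δ : ℝ) (a : Cj) :
    volume {p | good q q' δ (a.g (sec p))}ᶜ ≤ 3 * ENNReal.ofReal (2 * δ) := by
  have := prob1
  have m1 : MeasurePreserving (fun p => (ind a.g p).1) volume volume :=
    measurePreserving_fst.comp a.ng.mp
  have m2 : MeasurePreserving (fun p => (ind a.g p).2) volume volume :=
    measurePreserving_snd.comp a.ng.mp
  have hs : {p | good q q' δ (a.g (sec p))}ᶜ ⊆
      ({p | ¬ far δ (q * sg (ind a.g p).1)} ∪ {p | ¬ far δ ((1 : ℕ) * sg (ind a.g p).1)}) ∪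
        {p | ¬ far δ (q' * sg (ind a.g p).2)} := by
    intro p hp
    by_contra hc
    simp only [mem_union, mem_ofPred_eq, not_or, not_not, Nat.cast_one, one_mul] at hc
    apply hp
    have : good q q' δ (sec (pr (a.g (sec p)))) := ⟨hc.1.1, hc.1.2, hc.2⟩
    rwa [sec_pr, good_io] at this
  calc _ ≤ _ := measure_mono hs
    _ ≤ _ := (measure_union_le _ _).trans (add_le_add_left (measure_union_le _ _) _)
    _ ≤ ENNReal.ofReal (2 * δ) + ENNReal.ofReal (2 * δ) + ENNReal.ofReal (2 * δ) :=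
      add_le_add (add_le_add (vol_not_far q hq δ m1) (vol_not_far 1 one_pos δ m1))
        (vol_not_far q' hq' δ m2)
    _ = _ := by ring

theorem meas_far (δ : ℝ) {φ : T2 → ℝ} (h : Measurable φ) : MeasurableSet {p | far δ (φ p)} :=
  measurableSet_lt measurable_const (AddCircle.measurable_mk'.comp h).norm

theorem meas_good (q q' : ℕ) (δ : ℝ) (a : Cj) :
    MeasurableSet {p | good q q' δ (a.g (sec p))} := by
  have m : Measurable fun p => a.g (sec p) := a.ng.smooth.continuous.measurable.comp meas_sec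
  exact (meas_far δ (m.fst.const_mul _)).inter
    ((meas_far δ m.fst).inter (meas_far δ (m.snd.const_mul _)))

theorem meas_JZ (q : ℕ) (a : Cj) : Measurable fun p => JZ q a (sec p) := by
  have m : Measurable fun p => a.g (sec p) := a.ng.smooth.continuous.measurable.comp meas_sec
  exact (measurable_of_countable (fun k : ℤ => (k : ZMod q))).comp (m.snd.const_mul _).floor

end Vale.Agent.P109O
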