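import Mathlib

open MeasureTheory Filter Topology Set
open scoped ContDiff

namespace Vale.Agent.P109O

/-- The plane. -/
abbrev V : Type := ℝ × ℝ

/-- The torus `(ℝ / ℤ) ^ 2`. -/
abbrev T2 : Type := UnitAddCircle × UnitAddCircle

/-- The covering map from the plane to the torus. -/
def pr (z : V) : T2 := ((z.1 : UnitAddCircle), (z.2 : UnitAddCircle))

noncomputable def sg (a : UnitAddCircle) : ℝ := (AddCircle.equivIco 1 0 a : ℝ)

theorem sg_coe (x : ℝ) : sg (x : UnitAddCircle) = Int.fract x := by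
  unfold sg
  rw [AddCircle.coe_equivIco_mk_apply]; simp

theorem meas_sg : Measurable sg :=
  measurable_subtype_coe.comp (AddCircle.measurableEquivIco 1 0).measurable

theorem coe_int (n : ℤ) : (((n : ℝ)) : UnitAddCircle) = 0 := by
  rw [AddCircle.coe_eq_zero_iff]
  exact ⟨n, by simp⟩

theorem coe_fract' (x : ℝ) : ((Int.fract x : ℝ) : UnitAddCircle) = x := by
  rw [Int.fract, AddCircle.coe_sub, coe_int, sub_zero]

theorem coe_sg (a : UnitAddCircle) : ((sg a : ℝ) : UnitAddCircle) = a := by
  induction a using QuotientAddGroup.induction_on with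
  | H x => rw [sg_coe, coe_fract']

noncomputable def sec (p : T2) : V := (sg p.1, sg p.2)

theorem meas_sec : Measurable sec :=
  (meas_sg.comp measurable_fst).prodMk (meas_sg.comp measurable_snd)

theorem pr_sec (p : T2) : pr (sec p) = p := by
  simp [pr, sec, coe_sg]

theorem cont_pr : Continuous pr :=
  ((AddCircle.continuous_mk' 1).comp continuous_fst).prodMk
    ((AddCircle.continuous_mk' 1).comp continuous_snd)

theorem meas_pr : Measurable pr := cont_pr.measurable

def io (m : ℤ × ℤ) : V := ((m.1 : ℝ), (m.2 : ℝ))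

theorem pr_add (z w : V) : pr (z + w) = pr z + pr w := by
  simp [pr]

theorem pr_io (m : ℤ × ℤ) : pr (io m) = 0 := by
  simp only [pr, io, coe_int]; rfl

theorem pr_add_io (z : V) (m : ℤ × ℤ) : pr (z + io m) = pr z := by
  rw [pr_add, pr_io, add_zero]

theorem sec_pr (z : V) : sec (pr z) = z + io (-⌊z.1⌋, -⌊z.2⌋) := by
  simp only [sec, pr, sg_coe, io]
  ext <;> simp [Int.fract, sub_eq_add_neg]

def Per (f : V → V) : Prop := ∀ m : ℤ × ℤ, ∃ m' : ℤ × ℤ, ∀ z, f (z + io m) = f z + io m'

noncomputable def ind (f : V → V) (p : T2) : T2 := pr (f (sec p))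

theorem ind_pr {f : V → V} (hf : Per f) (z : V) : ind f (pr z) = pr (f z) := by
  obtain ⟨m', h⟩ := hf (-⌊z.1⌋, -⌊z.2⌋)
  rw [ind, sec_pr, h, pr_add_io]

theorem Per.comp {f g : V → V} (hf : Per f) (hg : Per g) : Per (f ∘ g) := by
  intro m
  obtain ⟨m', h⟩ := hg m
  obtain ⟨m'', h'⟩ := hf m'
  exact ⟨m'', fun z => by simp [h, h']⟩

theorem ind_comp {f : V → V} (hf : Per f) (g : V → V) : ind (f ∘ g) = ind f ∘ ind g := by
  funext p
  simp only [Function.comp, ind]
  exact (ind_pr hf _).symm

theorem meas_ind {f : V → V} (hf : Continuous f) : Measurable (ind f) :=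
  meas_pr.comp (hf.measurable.comp meas_sec)

/-- smooth, descends to the torus, and preserves area there -/
structure Nice (f : V → V) : Prop where
  smooth : ContDiff ℝ ∞ f
  per : Per f
  mp : MeasurePreserving (ind f) volume volume

theorem Nice.comp {f g : V → V} (hf : Nice f) (hg : Nice g) : Nice (f ∘ g) :=
  ⟨hf.smooth.comp hg.smooth, hf.per.comp hg.per, by
    rw [ind_comp hf.per]; exact hf.mp.comp hg.mp⟩

theorem nice_add (v : V) : Nice (fun z => z + v) := by
  refine ⟨contDiff_id.add contDiff_const, fun m => ⟨m, fun z => by abel⟩, ?_⟩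
  have : ind (fun z => z + v) = fun p => p + pr v := by
    funext p; simp [ind, pr_add, pr_sec]
  rw [this]
  exact (measurePreserving_add_right volume (pr v).1).prod
    (measurePreserving_add_right volume (pr v).2)

theorem nice_id : Nice id := by
  have := nice_add 0
  simp only [add_zero] at this
  exact this

theorem nice_swap : Nice Prod.swap := by
  refine ⟨contDiff_snd.prodMk contDiff_fst, fun m => ⟨m.swap, fun z => rfl⟩, ?_⟩
  have : ind Prod.swap = Prod.swap := by
    funext p; simp [ind, pr, sec, coe_sg, Prod.swap]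
  rw [this]
  exact Measure.measurePreserving_swap

def shear (φ : ℝ → ℝ) (z : V) : V := (z.1, z.2 + φ z.1)

theorem int_shift {φ : ℝ → ℝ} {k : ℤ} (h : ∀ x, φ (x + 1) = φ x + k) (m : ℤ) (x : ℝ) :
    φ (x + m) = φ x + (m * k : ℤ) := by
  induction m using Int.induction_on generalizing x with
  | zero => simp
  | succ n ih =>
    have := h (x + (n : ℤ))
    push_cast at *
    rw [← add_assoc, this, ih]; ring
  | pred n ih =>
    have h1 := h (x + ((-(n : ℤ) - 1 : ℤ) : ℝ))
    have h2 := ih x
    push_cast at *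
    rw [show x + (-(n : ℝ) - 1) + 1 = x + -(n : ℝ) by ring, h2] at h1
    linarith

theorem nice_shear {φ : ℝ → ℝ} (hφ : ContDiff ℝ ∞ φ) {k : ℤ} (h : ∀ x, φ (x + 1) = φ x + k) :
    Nice (shear φ) := by
  refine ⟨contDiff_fst.prodMk (contDiff_snd.add (hφ.comp contDiff_fst)),
    fun m => ⟨(m.1, m.2 + m.1 * k), fun z => ?_⟩, ?_⟩
  · simp only [shear, io, Prod.fst_add, Prod.snd_add, int_shift h, Prod.mk_add_mk]
    ext
    · rfl
    · push_cast; ring
  · have : ind (shear φ) = fun p : T2 => (id p.1, p.2 + ((φ (sg p.1) : ℝ) : UnitAddCircle)) := by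
      funext p; simp [ind, pr, sec, coe_sg, shear]
    rw [this]
    refine MeasurePreserving.skew_product (μa := volume) (μb := volume) (μc := volume)
      (μd := volume) (MeasurePreserving.id _)
      (g := fun a b => b + ((φ (sg a) : ℝ) : UnitAddCircle)) ?_ ?_
    · exact measurable_snd.add (AddCircle.measurable_mk'.comp
        (hφ.continuous.measurable.comp (meas_sg.comp measurable_fst)))
    · exact Eventually.of_forall fun a => (measurePreserving_add_right _ _).map_eq

/-- a conjugacy: a nice map with a nice inverse -/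
structure Cj where
  f : V → V
  g : V → V
  nf : Nice f
  ng : Nice g
  fg : ∀ z, f (g z) = z
  gf : ∀ z, g (f z) = z

def Cj.one : Cj := ⟨id, id, nice_id, nice_id, fun _ => rfl, fun _ => rfl⟩

def Cj.comp (a b : Cj) : Cj :=
  ⟨a.f ∘ b.f, b.g ∘ a.g, a.nf.comp b.nf, b.ng.comp a.ng, fun z => by simp [a.fg, b.fg],
    fun z => by simp [a.gf, b.gf]⟩

def Cj.swap : Cj := ⟨Prod.swap, Prod.swap, nice_swap, nice_swap, fun _ => rfl, fun _ => rfl⟩

def Cj.shear {φ : ℝ → ℝ} (hφ : ContDiff ℝ ∞ φ) {k : ℤ} (h : ∀ x, φ (x + 1) = φ x + k) : Cj :=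
  ⟨P109O.shear φ, P109O.shear (fun x => -φ x), nice_shear hφ h,
    nice_shear hφ.neg (k := -k) (fun x => by rw [h]; push_cast; ring),
    fun z => by simp [P109O.shear], fun z => by simp [P109O.shear]⟩

/-- the conjugated translation -/
def Cj.tr (a : Cj) (v : V) (z : V) : V := a.f (a.g z + v)

theorem Cj.nice_tr (a : Cj) (v : V) : Nice (a.tr v) :=
  a.nf.comp ((nice_add v).comp a.ng)

theorem Cj.tr_io (a : Cj) (m : ℤ × ℤ) (v z : V) : a.tr v (z + io m) = a.tr v z + io m := by
  obtain ⟨m', h⟩ := a.ng.per m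
  have h2 : ∀ w, a.f (w + io m') = a.f w + io m := by
    intro w
    have := h (a.f w)
    rw [a.gf] at this
    rw [← this, a.fg]
  simp only [Cj.tr, h]
  rw [show a.g z + io m' + v = a.g z + v + io m' by abel, h2]

theorem Cj.tr_tr (a : Cj) (v z : V) : a.tr v (a.tr (-v) z) = z := by
  simp [Cj.tr, a.gf, a.fg]

theorem Cj.g_tr (a : Cj) (v z : V) : a.g (a.tr v z) = a.g z + v := by
  simp [Cj.tr, a.gf]

end Vale.Agent.P109O
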