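import Mathlib

open MeasureTheory
open scoped ContDiff Manifold

namespace Vale.Agent.P109O

/-- The maps `π n : X → ℤ / q n` identify `(X, μ, T)` modulo null sets with the odometer
(adding machine) `x ↦ x + 1` on the inverse limit of the groups `ℤ / q n`: they are measurable,
`T` adds one to each of them, they are compatible with reduction, and together they separate
the points of a set of full measure. -/
def IsOdometer {X : Type*} [MeasurableSpace X] (μ : Measure X) (T : X → X) (q : ℕ → ℕ)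
    (π : ∀ n, X → ZMod (q n)) : Prop :=
  (∀ n, Measurable (π n)) ∧ (∀ n, ∀ᵐ x ∂μ, π n (T x) = π n x + 1) ∧
    (∀ n, ∀ᵐ x ∂μ, (ZMod.cast (π (n + 1) x) : ZMod (q n)) = π n x) ∧
    ∃ X₁ : Set X, (∀ᵐ x ∂μ, x ∈ X₁) ∧ ∀ x ∈ X₁, ∀ y ∈ X₁, (∀ n, π n x = π n y) → x = y

/-- Measurable isomorphism of systems: a bijection `F` between invariant conull sets, measurable
with measurable inverse, carrying `μ` to `ν`, with `F ∘ T = S ∘ F`. -/
def Iso {X Y : Type*} [MeasurableSpace X] [MeasurableSpace Y] (μ : Measure X) (T : X → X)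
    (ν : Measure Y) (S : Y → Y) : Prop :=
  ∃ (X₀ : Set X) (Y₀ : Set Y), MeasurableSet X₀ ∧ MeasurableSet Y₀ ∧ μ X₀ᶜ = 0 ∧ ν Y₀ᶜ = 0 ∧
    T ⁻¹' X₀ = X₀ ∧ S ⁻¹' Y₀ = Y₀ ∧
    ∃ F : X₀ ≃ᵐ Y₀, MeasurePreserving F (μ.comap Subtype.val) (ν.comap Subtype.val) ∧
      ∀ x x' : X₀, (x' : X) = T x → (F x' : Y) = S (F x)

/-- The normalised area on the torus `Circle × Circle`: the image of Lebesgue measure on the unit
square under `(s, t) ↦ (exp (2 π i s), exp (2 π i t))`. -/
noncomputable def area [MeasurableSpace Circle] : Measure (Circle × Circle) :=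
  ((volume : Measure (ℝ × ℝ)).restrict (Set.Ioc 0 1 ×ˢ Set.Ioc 0 1)).map
    (fun z => (Circle.exp (2 * Real.pi * z.1), Circle.exp (2 * Real.pi * z.2)))

/-- A `C^∞` self-map of the manifold `Circle × Circle`. -/
def Smooth2 (f : Circle × Circle → Circle × Circle) : Prop :=
  ContMDiff ((𝓡 1).prod (𝓡 1)) ((𝓡 1).prod (𝓡 1)) ∞ f

/-- A `C^∞` diffeomorphism of the manifold `Circle × Circle`. -/
def IsDiffeo (S : Circle × Circle → Circle × Circle) : Prop :=
  Smooth2 S ∧ ∃ S', Smooth2 S' ∧ Function.LeftInverse S' S ∧ Function.RightInverse S' S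

end Vale.Agent.P109O
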