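import Vale.Agent.P109O.Basic

open MeasureTheory Filter Topology Set
open scoped ContDiff

namespace Vale.Agent.P109O

/-- a smooth staircase -/
noncomputable def st (δ t : ℝ) : ℝ :=
  ⌊t⌋ + Real.smoothTransition ((Int.fract t - (1 - δ)) / δ)

theorem st_add (δ t : ℝ) (n : ℤ) : st δ (t + n) = st δ t + n := by
  simp only [st, Int.floor_add_intCast, Int.fract_add_intCast]; push_cast; ring

theorem st_eq {δ t : ℝ} (hδ : 0 < δ) (h : Int.fract t ≤ 1 - δ) : st δ t = ⌊t⌋ := by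
  rw [st, Real.smoothTransition.zero_of_nonpos, add_zero]
  exact div_nonpos_of_nonpos_of_nonneg (by linarith) hδ.le

theorem st_smooth {δ : ℝ} (hδ : 0 < δ) (h1 : δ < 1) : ContDiff ℝ ∞ (st δ) := by
  rw [contDiff_iff_contDiffAt]
  intro t
  set n : ℤ := ⌈t⌉ with hn
  have hs : ContDiff ℝ ∞ (fun s : ℝ => ((n : ℝ) - 1) +
      Real.smoothTransition ((s - (n - 1) - (1 - δ)) / δ)) :=
    contDiff_const.add (Real.smoothTransition.contDiff.comp
      (((contDiff_id.sub contDiff_const).sub contDiff_const).div_const _))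
  refine hs.contDiffAt.congr_of_eventuallyEq ?_
  have hmem : Ioo ((n : ℝ) - 1) (n + 1 - δ) ∈ 𝓝 t :=
    Ioo_mem_nhds (by have := Int.ceil_lt_add_one t; linarith)
      (by have := Int.le_ceil t; linarith)
  filter_upwards [hmem] with s hs
  rcases lt_or_ge s n with h | h
  · have : ⌊s⌋ = n - 1 := by
      rw [Int.floor_eq_iff]; push_cast; constructor <;> linarith [hs.1]
    simp only [st, Int.fract, this]; push_cast; rfl
  · have h2 : ⌊s⌋ = n := by
      rw [Int.floor_eq_iff]; constructor <;> linarith [hs.2]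
    rw [st_eq hδ (by rw [Int.fract, h2]; linarith [hs.2]), h2,
      Real.smoothTransition.one_of_one_le]
    · ring
    · rw [le_div_iff₀ hδ]; linarith

def far (δ t : ℝ) : Prop := δ < ‖(t : UnitAddCircle)‖

theorem norm_le_int (t : ℝ) (n : ℤ) : ‖(t : UnitAddCircle)‖ ≤ |t - n| := by
  rw [UnitAddCircle.norm_eq]; exact round_le t n

theorem far.lo {δ t : ℝ} (h : far δ t) : δ < Int.fract t := by
  have := norm_le_int t ⌊t⌋
  rw [← Int.fract, abs_of_nonneg (Int.fract_nonneg t)] at this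
  exact lt_of_lt_of_le h this

theorem far.hi {δ t : ℝ} (h : far δ t) : Int.fract t < 1 - δ := by
  have := norm_le_int t (⌊t⌋ + 1)
  have h2 := Int.fract_lt_one t
  rw [abs_of_nonpos (by rw [Int.fract] at h2; push_cast; linarith)] at this
  have h3 : δ < _ := lt_of_lt_of_le h this
  rw [Int.fract]; push_cast at h3; linarith

theorem far.floor_add {δ t e : ℝ} (h : far δ t) (he : |e| ≤ δ) : ⌊t + e⌋ = ⌊t⌋ := by
  have h1 := h.lo
  have h2 := h.hi
  rw [abs_le] at he
  rw [Int.fract] at h1 h2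
  rw [Int.floor_eq_iff]
  constructor <;> linarith [he.1, he.2]

def good (q q' : ℕ) (δ : ℝ) (z : V) : Prop := far δ (q * z.1) ∧ far δ z.1 ∧ far δ (q' * z.2)

noncomputable def cc (q : ℕ) (x : ℝ) : ℤ := ⌊q * x⌋ - q * ⌊x⌋

theorem cc_bd {q : ℕ} (x : ℝ) : 0 ≤ cc q x ∧ cc q x ≤ q := by
  have h1 := Int.floor_le x
  have h2 := Int.lt_floor_add_one x
  have h3 : (0 : ℝ) ≤ q := Nat.cast_nonneg q
  constructor
  · rw [cc, sub_nonneg, Int.le_floor]; push_cast; nlinarith
  · have h4 := Int.floor_le (q * x)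
    have : ((⌊q * x⌋ : ℤ) : ℝ) ≤ ((q * ⌊x⌋ + q : ℤ) : ℝ) := by push_cast; nlinarith
    have := Int.cast_le.1 this
    rw [cc]; linarith

theorem exG {q q' : ℕ} {δ : ℝ} (hq : 0 < q) (hq' : 0 < q') (hd : q ∣ q') (hδ : 0 < δ)
    (h1 : δ < 1) : ∃ G : Cj, (∀ z, G.f (z + (0, 1 / (q' : ℝ))) = G.f z + (1 / (q' : ℝ), 1 / (q : ℝ))) ∧
      ∀ z, good q q' δ z → G.f z =
        (z.2 - (cc q z.1 : ℝ) / q', z.1 + ((⌊q' * z.2⌋ - cc q z.1 : ℤ) : ℝ) / q) := by
  obtain ⟨r, rfl⟩ := hd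
  have hq0 : (q : ℝ) ≠ 0 := by positivity
  have hq1 : ((q * r : ℕ) : ℝ) ≠ 0 := by positivity
  have hu := st_smooth hδ h1
  have s1 : ContDiff ℝ ∞ (fun x : ℝ => -(st δ (q * x) - q * st δ x) / (q * r : ℕ)) :=
    ((hu.comp (contDiff_const.mul contDiff_id)).sub (contDiff_const.mul hu)).neg.div_const _
  have p1 : ∀ x : ℝ, -(st δ (q * (x + 1)) - q * st δ (x + 1)) / (q * r : ℕ) =
      -(st δ (q * x) - q * st δ x) / (q * r : ℕ) + (0 : ℤ) := by
    intro x
    have a1 := st_add δ (q * x) q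
    have a2 := st_add δ x 1
    push_cast at a1 a2
    rw [mul_add, mul_one, a1, a2]; push_cast; ring
  have s2 : ContDiff ℝ ∞ (fun x : ℝ => st δ ((q * r : ℕ) * x) / q) :=
    (hu.comp (contDiff_const.mul contDiff_id)).div_const _
  have p2 : ∀ x : ℝ, st δ ((q * r : ℕ) * (x + 1)) / q = st δ ((q * r : ℕ) * x) / q + (r : ℤ) := by
    intro x
    have a1 := st_add δ ((q * r : ℕ) * x) (q * r : ℕ)
    rw [Int.cast_natCast] at a1
    rw [mul_add, mul_one, a1]; push_cast; field_simp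
  refine ⟨(Cj.shear s2 p2).comp (Cj.swap.comp (Cj.shear s1 p1)), fun z => ?_, fun z hz => ?_⟩
  · simp only [Cj.comp, Cj.shear, Cj.swap, Function.comp, shear, Prod.swap, Prod.fst_add,
      Prod.snd_add, add_zero, Prod.mk_add_mk]
    have a1 := st_add δ ((q * r : ℕ) * (z.2 + -(st δ (q * z.1) - q * st δ z.1) / (q * r : ℕ))) 1
    ext
    · simp only; ring
    · simp only
      rw [show ((q * r : ℕ) : ℝ) * (z.2 + 1 / (q * r : ℕ) +
          -(st δ (q * z.1) - q * st δ z.1) / (q * r : ℕ)) =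
          (q * r : ℕ) * (z.2 + -(st δ (q * z.1) - q * st δ z.1) / (q * r : ℕ)) + (1 : ℤ) by
        rw [Int.cast_one]; field_simp; ring, a1]
      push_cast; ring
  · obtain ⟨g1, g2, g3⟩ := hz
    simp only [Cj.comp, Cj.shear, Cj.swap, Function.comp, shear, Prod.swap]
    rw [st_eq hδ g1.hi.le, st_eq hδ g2.hi.le]
    have e1 : ((q * r : ℕ) : ℝ) * (z.2 + -((⌊q * z.1⌋ : ℝ) - q * (⌊z.1⌋ : ℝ)) / (q * r : ℕ)) =
        (q * r : ℕ) * z.2 + (-cc q z.1 : ℤ) := by
      rw [cc, mul_add, mul_div_cancel₀ _ hq1]; push_cast; ring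
    rw [e1, st_add, st_eq hδ g3.hi.le]
    ext
    · simp only [cc]; push_cast; ring
    · simp only; push_cast; ring

/-- the bad set of the torus has small area -/
theorem vol_not_far (n : ℕ) (hn : 0 < n) (δ : ℝ) {φ : T2 → UnitAddCircle}
    (hφ : MeasurePreserving φ volume volume) :
    volume {p | ¬ far δ (n * sg (φ p))} ≤ ENNReal.ofReal (2 * δ) := by
  have h1 := (Measure.measurePreserving_zsmul (volume : Measure UnitAddCircle)
    (n := (n : ℤ)) (by exact_mod_cast hn.ne')).comp hφ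
  have h2 := h1.measure_preimage (s := Metric.closedBall 0 δ)
    measurableSet_closedBall.nullMeasurableSet
  rw [AddCircle.volume_closedBall] at h2
  have h3 : {p | ¬ far δ (n * sg (φ p))} =
      ((fun g : UnitAddCircle => (n : ℤ) • g) ∘ φ) ⁻¹' Metric.closedBall 0 δ := by
    ext p
    have : ((n * sg (φ p) : ℝ) : UnitAddCircle) = (n : ℤ) • φ p := by
      conv_rhs => rw [← coe_sg (φ p), ← AddCircle.coe_zsmul]
      simp
    simp only [far, this, mem_setOf_eq, not_lt, mem_preimage, Function.comp,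
      mem_closedBall_zero_iff]
  rw [h3, h2]
  exact ENNReal.ofReal_le_ofReal (min_le_right _ _)

end Vale.Agent.P109O
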