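import Vale.Agent.P109O.Defs

open MeasureTheory Filter Topology Set

namespace Vale.Agent.P109O

theorem dvd_le {q : ℕ → ℕ} (hd : ∀ n, q n ∣ q (n + 1)) {m n : ℕ} (h : m ≤ n) : q m ∣ q n := by
  induction n, h using Nat.le_induction with
  | base => rfl
  | succ n _ ih => exact ih.trans (hd n)

theorem cast_cast' {a b c : ℕ} (h1 : a ∣ b) (h2 : b ∣ c) (x : ZMod c) :
    (ZMod.cast (ZMod.cast x : ZMod b) : ZMod a) = ZMod.cast x := by
  have := RingHom.congr_fun (ZMod.castHom_comp h1 h2) x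
  simpa only [RingHom.comp_apply, ZMod.castHom_apply] using this

theorem compat_le {q : ℕ → ℕ} (hd : ∀ n, q n ∣ q (n + 1)) {a : ∀ n, ZMod (q n)}
    (ha : ∀ n, (ZMod.cast (a (n + 1)) : ZMod (q n)) = a n) {m n : ℕ} (h : m ≤ n) :
    (ZMod.cast (a n) : ZMod (q m)) = a m := by
  induction n, h using Nat.le_induction with
  | base => exact ZMod.cast_id _ _
  | succ n hn ih => rw [← ih, ← ha n, cast_cast' (dvd_le hd hn) (hd n)]

theorem law_level {X : Type*} [MeasurableSpace X] {μ : Measure X} [IsProbabilityMeasure μ]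
    {T : X → X} (hT : MeasurePreserving T μ μ) {q : ℕ} (hq : 0 < q) {π : X → ZMod q}
    (hm : Measurable π) (h : ∀ᵐ x ∂μ, π (T x) = π x + 1) (a : ZMod q) :
    μ.map π {a} = (q : ENNReal)⁻¹ := by
  have : NeZero q := ⟨hq.ne'⟩
  have h1 : ∀ a, μ.map π {a + 1} = μ.map π {a} := by
    intro a
    rw [Measure.map_apply hm (measurableSet_singleton _),
      Measure.map_apply hm (measurableSet_singleton _),
      ← hT.measure_preimage (hm (measurableSet_singleton _)).nullMeasurableSet]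
    apply measure_congr
    filter_upwards [h] with x hx
    apply propext
    change π (T x) = a + 1 ↔ π x = a
    rw [hx, add_left_inj]
  have h2 : ∀ k : ℕ, μ.map π {(k : ZMod q)} = μ.map π {0} := by
    intro k
    induction k with
    | zero => simp
    | succ k ih => rw [Nat.cast_succ, h1, ih]
  have h3 : ∀ a, μ.map π {a} = μ.map π {0} := fun a => by
    rw [← h2 a.val, ZMod.natCast_zmod_val]
  have := Measure.isProbabilityMeasure_map (μ := μ) hm.aemeasurable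
  have h4 : ∑ a : ZMod q, μ.map π {a} = 1 := by
    rw [sum_measure_singleton]; simp
  simp only [h3, Finset.sum_const, Finset.card_univ, ZMod.card, nsmul_eq_mul] at h4
  rw [h3]
  exact (ENNReal.eq_inv_of_mul_eq_one_left (by rw [mul_comm]; exact h4))

theorem law_restrict {X : Type*} [MeasurableSpace X] {μ : Measure X}
    {T : X → X} {q : ℕ → ℕ} (hq : ∀ n, 0 < q n) (hd : ∀ n, q n ∣ q (n + 1))
    {π : ∀ n, X → ZMod (q n)} (h : IsOdometer μ T q π) (I : Finset ℕ) :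
    (μ.map (fun x n => π n x)).map I.restrict =
      (μ.map (π (I.sup id))).map (fun a (i : I) => (ZMod.cast a : ZMod (q i))) := by
  obtain ⟨h1, -, h3, -⟩ := h
  have : NeZero (q (I.sup id)) := ⟨(hq _).ne'⟩
  rw [Measure.map_map (Finset.measurable_restrict I) (measurable_pi_lambda _ h1),
    Measure.map_map (measurable_of_countable _) (h1 _)]
  apply Measure.map_congr
  filter_upwards [ae_all_iff.2 h3] with x hx
  funext i
  exact (compat_le hd (a := fun n => π n x) hx (Finset.le_sup (f := id) i.2)).symm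

theorem law_eq {X Y : Type*} [MeasurableSpace X] [MeasurableSpace Y] {μ : Measure X}
    {ν : Measure Y} [IsProbabilityMeasure μ] [IsProbabilityMeasure ν] {T : X → X} {S : Y → Y}
    (hT : MeasurePreserving T μ μ) (hS : MeasurePreserving S ν ν)
    {q : ℕ → ℕ} (hq : ∀ n, 0 < q n) (hd : ∀ n, q n ∣ q (n + 1)) {π : ∀ n, X → ZMod (q n)}
    {ρ : ∀ n, Y → ZMod (q n)} (h : IsOdometer μ T q π) (h' : IsOdometer ν S q ρ) :
    μ.map (fun x n => π n x) = ν.map (fun y n => ρ n y) := by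
  refine IsProjectiveLimit.unique (P := fun I => (ν.map (fun y n => ρ n y)).map I.restrict)
    (fun I => ?_) (fun _ => rfl)
  simp only
  rw [law_restrict hq hd h, law_restrict hq hd h']
  congr 1
  have : NeZero (q (I.sup id)) := ⟨(hq _).ne'⟩
  apply Measure.ext_of_singleton
  intro a
  rw [law_level hT (hq _) (h.1 _) (h.2.1 _), law_level hS (hq _) (h'.1 _) (h'.2.1 _)]

theorem ex_inv {X : Type*} [MeasurableSpace X] {μ : Measure X} {T : X ≃ᵐ X}
    (hT : MeasurePreserving T μ μ) {B : Set X} (hB : ∀ᵐ x ∂μ, x ∈ B) :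
    ∃ A, MeasurableSet A ∧ μ Aᶜ = 0 ∧ T ⁻¹' A = A ∧ A ⊆ B := by
  obtain ⟨N, hN, hNm, hN0⟩ := exists_measurable_superset_of_null (ae_iff.1 hB)
  have hT' := hT.symm
  refine ⟨(⋂ n, T^[n] ⁻¹' Nᶜ) ∩ ⋂ n, T.symm^[n] ⁻¹' Nᶜ, ?_, ?_, ?_, ?_⟩
  · exact (MeasurableSet.iInter fun n => (T.measurable.iterate n) hNm.compl).inter
      (MeasurableSet.iInter fun n => (T.symm.measurable.iterate n) hNm.compl)
  · rw [compl_inter, compl_iInter, compl_iInter]
    refine measure_union_null (measure_iUnion_null fun n => ?_) (measure_iUnion_null fun n => ?_)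
    · rw [← preimage_compl, compl_compl, (hT.iterate n).measure_preimage hNm.nullMeasurableSet, hN0]
    · rw [← preimage_compl, compl_compl, (hT'.iterate n).measure_preimage hNm.nullMeasurableSet,
        hN0]
  · ext x
    simp only [mem_preimage, mem_inter_iff, mem_iInter]
    constructor
    · rintro ⟨h1, h2⟩
      refine ⟨fun n => ?_, fun n => by simpa using h2 (n + 1)⟩
      cases n with
      | zero => simpa using h2 1
      | succ n => exact h1 n
    · rintro ⟨h1, h2⟩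
      refine ⟨fun n => h1 (n + 1), fun n => ?_⟩
      cases n with
      | zero => exact h1 1
      | succ n => simpa using h2 n
  · intro x hx
    by_contra hc
    exact mem_iInter.1 hx.1 0 (hN hc)

theorem odo_core {X : Type*} [MeasurableSpace X] {μ : Measure X} {T : X ≃ᵐ X}
    (hT : MeasurePreserving T μ μ) {q : ℕ → ℕ} {π : ∀ n, X → ZMod (q n)}
    (h : IsOdometer μ T q π) :
    ∃ A, MeasurableSet A ∧ μ Aᶜ = 0 ∧ T ⁻¹' A = A ∧ InjOn (fun x n => π n x) A ∧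
      ∀ x ∈ A, (fun n => π n (T x)) = (fun n => π n x) + 1 := by
  obtain ⟨-, h2, -, X₁, h4, h5⟩ := h
  obtain ⟨A, a1, a2, a3, a4⟩ := ex_inv hT (B := X₁ ∩ {x | ∀ n, π n (T x) = π n x + 1})
    (by filter_upwards [h4, ae_all_iff.2 h2] with x hx hx' using ⟨hx, hx'⟩)
  exact ⟨A, a1, a2, a3, fun x hx y hy e => h5 x (a4 hx).1 y (a4 hy).1 (congrFun e),
    fun x hx => funext (a4 hx).2⟩

theorem inv_pre {X Y Ω : Type*} [AddGroup Ω] [One Ω] {T : X ≃ X} {S : Y ≃ Y} {Φ : X → Ω}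
    {Ψ : Y → Ω} {A : Set X} {B : Set Y} (hA : T ⁻¹' A = A) (hB : S ⁻¹' B = B)
    (h1 : ∀ x ∈ A, Φ (T x) = Φ x + 1) (h2 : ∀ y ∈ B, Ψ (S y) = Ψ y + 1) :
    T ⁻¹' (A ∩ Φ ⁻¹' (Ψ '' B)) = A ∩ Φ ⁻¹' (Ψ '' B) := by
  rw [preimage_inter, hA]
  ext x
  simp only [mem_inter_iff, mem_preimage, and_congr_right_iff]
  intro hx
  rw [h1 x hx]
  constructor
  · rintro ⟨y, hy, e⟩
    have hy' : S.symm y ∈ B := by rw [← hB]; simpa using hy
    have := h2 _ hy'
    rw [S.apply_symm_apply, e, add_left_inj] at this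
    exact ⟨_, hy', this.symm⟩
  · rintro ⟨y, hy, e⟩
    exact ⟨S y, by rw [← hB] at hy; exact hy, by rw [h2 y hy, e]⟩

theorem conull_pre {X Y Ω : Type*} [MeasurableSpace X] [MeasurableSpace Y] [MeasurableSpace Ω]
    {μ : Measure X} {ν : Measure Y} {Φ : X → Ω} {Ψ : Y → Ω} (hΦ : Measurable Φ)
    (hΨ : Measurable Ψ) (e : μ.map Φ = ν.map Ψ) {A : Set X} {B : Set Y} (hA : μ Aᶜ = 0)
    (hB : ν Bᶜ = 0) (hm : MeasurableSet (Ψ '' B)) : μ (A ∩ Φ ⁻¹' (Ψ '' B))ᶜ = 0 := by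
  rw [compl_inter]
  refine measure_union_null hA ?_
  rw [← preimage_compl, ← Measure.map_apply hΦ hm.compl, e, Measure.map_apply hΨ hm.compl]
  exact measure_mono_null (fun y hy hc => hy (mem_image_of_mem _ hc)) hB

theorem map_comap_conull {X Ω : Type*} [MeasurableSpace X] [MeasurableSpace Ω] {μ : Measure X}
    {Φ : X → Ω} (hΦ : Measurable Φ) {A : Set X} (hA : MeasurableSet A) (h0 : μ Aᶜ = 0) :
    (μ.comap (Subtype.val : A → X)).map (Φ ∘ Subtype.val) = μ.map Φ := by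
  rw [← Measure.map_map hΦ measurable_subtype_coe, map_comap_subtype_coe hA,
    Measure.restrict_eq_self_of_ae_mem (by exact h0)]

theorem ex_congr {Ω : Type*} [MeasurableSpace Ω] {s t : Set Ω} (h : s = t) :
    ∃ c : s ≃ᵐ t, ∀ x, (c x : Ω) = x := by
  subst h
  exact ⟨MeasurableEquiv.refl _, fun _ => rfl⟩

theorem iso_of_code {X Y Ω : Type*} [MeasurableSpace X] [MeasurableSpace Y] [StandardBorelSpace X]
    [StandardBorelSpace Y] [MeasurableSpace Ω] [MeasurableSpace.CountablySeparated Ω]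
    [AddGroup Ω] [One Ω] {μ : Measure X} {ν : Measure Y} {T : X ≃ X} {S : Y ≃ Y}
    {Φ : X → Ω} {Ψ : Y → Ω} (mΦ : Measurable Φ) (mΨ : Measurable Ψ) (e : μ.map Φ = ν.map Ψ)
    (hA : ∃ A, MeasurableSet A ∧ μ Aᶜ = 0 ∧ T ⁻¹' A = A ∧ InjOn Φ A ∧
      ∀ x ∈ A, Φ (T x) = Φ x + 1)
    (hB : ∃ B, MeasurableSet B ∧ ν Bᶜ = 0 ∧ S ⁻¹' B = B ∧ InjOn Ψ B ∧
      ∀ y ∈ B, Ψ (S y) = Ψ y + 1) : Iso μ T ν S := by
  obtain ⟨A, a1, a2, a3, a4, a5⟩ := hA
  obtain ⟨B, b1, b2, b3, b4, b5⟩ := hB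
  have mA : MeasurableSet (Φ '' A) := a1.image_of_measurable_injOn mΦ a4
  have mB : MeasurableSet (Ψ '' B) := b1.image_of_measurable_injOn mΨ b4
  have m0 : MeasurableSet (A ∩ Φ ⁻¹' (Ψ '' B)) := a1.inter (mΦ mB)
  have m1 : MeasurableSet (B ∩ Ψ ⁻¹' (Φ '' A)) := b1.inter (mΨ mA)
  have c0 := conull_pre mΦ mΨ e a2 b2 mB
  have c1 := conull_pre mΨ mΦ e.symm b2 a2 mA
  have i0 := inv_pre a3 b3 a5 b5
  have i1 := inv_pre b3 a3 b5 a5
  refine ⟨_, _, m0, m1, c0, c1, i0, i1, ?_⟩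
  have := m0.standardBorel
  have := m1.standardBorel
  have E0 : MeasurableEmbedding (Φ ∘ (Subtype.val : ↥(A ∩ Φ ⁻¹' (Ψ '' B)) → X)) :=
    (mΦ.comp measurable_subtype_coe).measurableEmbedding
      (fun x y hxy => Subtype.ext (a4 x.2.1 y.2.1 hxy))
  have E1 : MeasurableEmbedding (Ψ ∘ (Subtype.val : ↥(B ∩ Ψ ⁻¹' (Φ '' A)) → Y)) :=
    (mΨ.comp measurable_subtype_coe).measurableEmbedding
      (fun x y hxy => Subtype.ext (b4 x.2.1 y.2.1 hxy))
  have hr : range (Φ ∘ (Subtype.val : ↥(A ∩ Φ ⁻¹' (Ψ '' B)) → X)) =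
      range (Ψ ∘ (Subtype.val : ↥(B ∩ Ψ ⁻¹' (Φ '' A)) → Y)) := by
    ext w
    constructor
    · rintro ⟨⟨x, hx, y, hy, e⟩, rfl⟩
      exact ⟨⟨y, hy, x, hx, e.symm⟩, e⟩
    · rintro ⟨⟨y, hy, x, hx, e⟩, rfl⟩
      exact ⟨⟨x, hx, y, hy, e.symm⟩, e⟩
  obtain ⟨F, hF⟩ : ∃ F : ↥(A ∩ Φ ⁻¹' (Ψ '' B)) ≃ᵐ ↥(B ∩ Ψ ⁻¹' (Φ '' A)),
      ∀ x, Ψ (F x) = Φ x := by
    obtain ⟨c, hc⟩ := ex_congr hr
    refine ⟨(E0.equivRange.trans c).trans E1.equivRange.symm, fun x => ?_⟩
    have h1 := E1.equivRange.apply_symm_apply (c (E0.equivRange x))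
    rw [E1.equivRange_apply] at h1
    have h2 := (congrArg Subtype.val h1).trans (hc _)
    exact h2.trans (congrArg Subtype.val (E0.equivRange_apply x))
  refine ⟨F, ⟨F.measurable, ?_⟩, fun x x' hx => ?_⟩
  · rw [← E1.comap_map (Measure.map F _), Measure.map_map E1.measurable F.measurable,
      show (Ψ ∘ Subtype.val) ∘ F = Φ ∘ Subtype.val from funext hF, map_comap_conull mΦ m0 c0, e,
      ← map_comap_conull mΨ m1 c1, E1.comap_map]
  · apply b4 (F x').2.1 (by rw [← mem_preimage, b3]; exact (F x).2.1)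
    rw [hF, hx, a5 x x.2.1, b5 (F x) (F x).2.1, hF]

/-- two systems with the same odometer structure are isomorphic -/
theorem iso_of_odo {X Y : Type*} [MeasurableSpace X] [MeasurableSpace Y] [StandardBorelSpace X]
    [StandardBorelSpace Y] {μ : Measure X} {ν : Measure Y} [IsProbabilityMeasure μ]
    [IsProbabilityMeasure ν] {T : X ≃ᵐ X} {S : Y ≃ᵐ Y}
    (hT : MeasurePreserving T μ μ) (hS : MeasurePreserving S ν ν)
    {q : ℕ → ℕ} (hq : ∀ n, 0 < q n) (hd : ∀ n, q n ∣ q (n + 1)) {π : ∀ n, X → ZMod (q n)}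
    {ρ : ∀ n, Y → ZMod (q n)} (h : IsOdometer μ T q π) (h' : IsOdometer ν S q ρ) :
    Iso μ T ν S := by
  have : ∀ n, NeZero (q n) := fun n => ⟨(hq _).ne'⟩
  have : ∀ n, StandardBorelSpace (ZMod (q n)) := fun n => inferInstance
  have : StandardBorelSpace (∀ n, ZMod (q n)) := inferInstance
  exact iso_of_code (T := T.toEquiv) (S := S.toEquiv) (measurable_pi_lambda _ h.1)
    (measurable_pi_lambda _ h'.1) (law_eq hT hS hq hd h h') (odo_core hT h) (odo_core hS h')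

end Vale.Agent.P109O
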