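import Vale.Agent.P109O.Torus

open MeasureTheory Filter Topology Set
open scoped ContDiff Manifold

namespace Vale.Agent.P109O

noncomputable def ex2 (z : V) : Circle × Circle :=
  (Circle.exp (2 * Real.pi * z.1), Circle.exp (2 * Real.pi * z.2))

noncomputable def ph : T2 ≃ₜ Circle × Circle :=
  (AddCircle.homeomorphCircle one_ne_zero).prodCongr (AddCircle.homeomorphCircle one_ne_zero)

theorem ph_pr (z : V) : ph (pr z) = ex2 z := by
  simp [ph, pr, ex2, AddCircle.homeomorphCircle_apply, AddCircle.toCircle_apply_mk]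

noncomputable def lg (c₀ c : Circle) : ℝ :=
  (Complex.arg ((c / c₀ : Circle) : ℂ) + Complex.arg c₀) / (2 * Real.pi)

theorem exp_lg (c₀ c : Circle) : Circle.exp (2 * Real.pi * lg c₀ c) = c := by
  rw [lg, mul_div_cancel₀ _ (by positivity), Circle.exp_add, Circle.exp_arg, Circle.exp_arg,
    div_mul_cancel]

theorem lg_smooth (c₀ : Circle) : ContMDiffAt (𝓡 1) 𝓘(ℝ, ℝ) ∞ (lg c₀) c₀ := by
  have : Fact (Module.finrank ℝ ℂ = 1 + 1) := Complex.finrank_real_complex_fact
  have h1 : ContMDiff (𝓡 1) 𝓘(ℝ, ℂ) ∞ (fun c : Circle => (c : ℂ)) := contMDiff_coe_sphere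
  have h2 : ContDiffAt ℝ ∞ (fun w : ℂ =>
      ((Complex.log (w / c₀)).im + Complex.arg c₀) / (2 * Real.pi)) c₀ := by
    have h4 : ContDiffAt ℝ ∞ (fun w : ℂ => Complex.log (w / c₀)) c₀ := by
      refine ContDiffAt.comp (c₀ : ℂ) (g := Complex.log) ?_ (contDiffAt_id.div_const _)
      refine (Complex.contDiffAt_log ?_).restrict_scalars ℝ
      simp
    have h5 : ContDiffAt ℝ ∞ (fun w : ℂ => (Complex.log (w / c₀)).im) c₀ :=
      Complex.imCLM.contDiff.contDiffAt.comp (c₀ : ℂ) h4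
    exact (h5.add contDiffAt_const).div_const _
  have h3 := h2.contMDiffAt.comp c₀ (h1 c₀)
  convert h3 using 1
  funext c
  simp only [lg, Complex.log_im, Circle.coe_div]
  rfl

theorem ex2_smooth : ContMDiff 𝓘(ℝ, V) ((𝓡 1).prod (𝓡 1)) ∞ ex2 :=
  (contMDiff_circleExp.comp (contDiff_const.mul contDiff_fst).contMDiff).prodMk
    (contMDiff_circleExp.comp (contDiff_const.mul contDiff_snd).contMDiff)

theorem conj_smooth {F : V → V} (hF : ContDiff ℝ ∞ F) (hp : Per F) :
    ContMDiff ((𝓡 1).prod (𝓡 1)) ((𝓡 1).prod (𝓡 1)) ∞ (fun c => ph (ind F (ph.symm c))) := by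
  intro c₀
  have e : (fun c => ph (ind F (ph.symm c))) =
      ex2 ∘ F ∘ fun c : Circle × Circle => (lg c₀.1 c.1, lg c₀.2 c.2) := by
    funext c
    have : c = ph (pr (lg c₀.1 c.1, lg c₀.2 c.2)) := by rw [ph_pr]; simp [ex2, exp_lg]
    conv_lhs => rw [this, ph.symm_apply_apply, ind_pr hp, ph_pr]
    rfl
  rw [e]
  refine (ex2_smooth _).comp c₀ ((hF.contMDiff _).comp c₀ ?_)
  exact ((lg_smooth c₀.1).comp c₀ contMDiffAt_fst).prodMk_space
    ((lg_smooth c₀.2).comp c₀ contMDiffAt_snd)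

theorem mp_ph [MeasurableSpace Circle] [BorelSpace Circle] : MeasurePreserving ph volume area := by
  refine ⟨ph.continuous.measurable, ?_⟩
  have h1 := AddCircle.measurePreserving_mk 1 0
  have h2 := (h1.prod h1).map_eq
  rw [zero_add, Measure.prod_restrict] at h2
  rw [area, Measure.volume_eq_prod, ← h2, Measure.map_map ph.continuous.measurable
    (h1.prod h1).measurable]
  congr 1
  funext z
  exact ph_pr z

theorem odo_equiv {X Y : Type*} [MeasurableSpace X] [MeasurableSpace Y] {μ : Measure X}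
    {ν : Measure Y} {T : X → X} (φ : X ≃ᵐ Y) (hφ : MeasurePreserving φ μ ν) {q : ℕ → ℕ}
    {π : ∀ n, X → ZMod (q n)} (h : IsOdometer μ T q π) :
    IsOdometer ν (fun y => φ (T (φ.symm y))) q (fun n y => π n (φ.symm y)) := by
  obtain ⟨h1, h2, h3, X₁, h4, h5⟩ := h
  have hq := hφ.symm.quasiMeasurePreserving
  refine ⟨fun n => (h1 n).comp φ.symm.measurable, fun n => ?_, fun n => hq.ae (h3 n),
    φ.symm ⁻¹' X₁, hq.ae h4, fun x hx y hy e => φ.symm.injective (h5 _ hx _ hy e)⟩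
  filter_upwards [hq.ae (h2 n)] with y hy
  rw [φ.symm_apply_apply, hy]

theorem model [MeasurableSpace Circle] [BorelSpace Circle] {q : ℕ → ℕ} (hq : ∀ n, 0 < q n)
    (hd : ∀ n, q n ∣ q (n + 1)) (ht : Tendsto q atTop atTop) :
    ∃ S : Diffeomorph ((𝓡 1).prod (𝓡 1)) ((𝓡 1).prod (𝓡 1)) (Circle × Circle) (Circle × Circle) ∞,
      MeasurePreserving S area area ∧ ∃ ρ, IsOdometer area S q ρ := by
  obtain ⟨F, G, f1, g1, f2, g2, fg, gf, mp, π, hπ⟩ := torus_model hq hd ht
  have inv : ∀ {F G : V → V}, Per F → (∀ z, F (G z) = z) → ∀ p, ind F (ind G p) = p := by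
    intro F G h1 h2 p
    rw [ind.eq_1 G, ind_pr h1, h2, pr_sec]
  refine ⟨⟨⟨fun c => ph (ind F (ph.symm c)), fun c => ph (ind G (ph.symm c)),
    fun c => by simp [inv g2 gf], fun c => by simp [inv f2 fg]⟩,
    conj_smooth f1 f2, conj_smooth g1 g2⟩, ?_, _,
    odo_equiv ph.toMeasurableEquiv mp_ph hπ⟩
  exact mp_ph.comp (mp.comp (MeasurePreserving.symm ph.toMeasurableEquiv mp_ph))

theorem prob_area [MeasurableSpace Circle] [BorelSpace Circle] : IsProbabilityMeasure area := by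
  have := prob1
  rw [← mp_ph.map_eq]
  exact Measure.isProbabilityMeasure_map mp_ph.measurable.aemeasurable

end Vale.Agent.P109O
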