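import Vale.Agent.P109O.Iso

open MeasureTheory Filter Topology Set

namespace Vale.Agent.P109O

theorem meas_ev_le {Y : Type*} [MeasurableSpace Y] {ν : Measure Y} {A : ℕ → Set Y} {c : ENNReal}
    (h : ∀ᶠ m in atTop, ν (A m) ≤ c) : ν {p | ∀ᶠ m in atTop, p ∈ A m} ≤ c := by
  have e : {p | ∀ᶠ m in atTop, p ∈ A m} = ⋃ N, ⋂ m ≥ N, A m := by
    ext p; simp [eventually_atTop]
  rw [e, Monotone.measure_iUnion (fun a b hab => biInter_subset_biInter_left fun m hm =>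
    le_trans hab hm)]
  refine iSup_le fun N => ?_
  obtain ⟨m, h1, h2⟩ := (h.and (eventually_ge_atTop N)).exists
  exact (measure_mono (biInter_subset_of_mem h2)).trans h1

theorem compat_from {q : ℕ → ℕ} (hd : ∀ n, q n ∣ q (n + 1)) {a : ∀ n, ZMod (q n)} {l : ℕ}
    (ha : ∀ n ≥ l, (ZMod.cast (a (n + 1)) : ZMod (q n)) = a n) {k m n : ℕ} (hk : k ≤ m)
    (hl : l ≤ m) (h : m ≤ n) :
    (ZMod.cast (a n) : ZMod (q k)) = ZMod.cast (a m) := by
  induction n, h using Nat.le_induction with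
  | base => rfl
  | succ n hn ih => rw [← ih, ← ha n (hl.trans hn), cast_cast' (dvd_le hd (hk.trans hn)) (hd n)]

/-- approximate towers give an odometer structure -/
structure Appr {Y : Type*} [MeasurableSpace Y] (ν : Measure Y) (S : Y → Y) (q : ℕ → ℕ)
    (J : ∀ n, Y → ZMod (q n)) (g : ℕ → Set Y) (R : ℕ → Y → Y) : Prop where
  mJ : ∀ n, Measurable (J n)
  mg : ∀ n, MeasurableSet (g n)
  sm : ∑' n, ν (g n)ᶜ ≠ ⊤
  cp : ∀ n, ∀ p ∈ g n, (ZMod.cast (J (n + 1) p) : ZMod (q n)) = J n p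
  inj : ∀ l p p', (∀ n ≥ l, p ∈ g n) → (∀ n ≥ l, p' ∈ g n) → (∀ n ≥ l, J n p = J n p') → p = p'
  mS : MeasurePreserving S ν ν
  mR : ∀ n, MeasurePreserving (R n) ν ν
  eqv : ∀ n p, J n (R n p) = J n p + 1
  loc : ∀ n p, S p ∈ g n → ∀ᶠ m in atTop, J (n + 1) (R m p) = J (n + 1) (S p)

section
variable {Y : Type*} [MeasurableSpace Y] {ν : Measure Y} {S : Y → Y} {q : ℕ → ℕ}
  {J : ∀ n, Y → ZMod (q n)} {g : ℕ → Set Y} {R : ℕ → Y → Y}

theorem Appr.mE (h : Appr ν S q J g R) (l : ℕ) : MeasurableSet {p | ∀ n ≥ l, p ∈ g n} := by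
  have : {p | ∀ n ≥ l, p ∈ g n} = ⋂ n ≥ l, g n := by ext p; simp
  rw [this]
  exact MeasurableSet.biInter (to_countable _) fun n _ => h.mg n

theorem Appr.tE (h : Appr ν S q J g R) :
    Tendsto (fun l => ν {p | ∀ n ≥ l, p ∈ g n}ᶜ) atTop (𝓝 0) := by
  refine tendsto_of_tendsto_of_tendsto_of_le_of_le tendsto_const_nhds
    (ENNReal.tendsto_sum_nat_add _ h.sm) (fun _ => zero_le) fun l => ?_
  refine le_trans (measure_mono fun p hp => ?_) (measure_iUnion_le _)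
  simp only [mem_compl_iff, mem_ofPred_eq, not_forall] at hp
  obtain ⟨n, hn, hp⟩ := hp
  exact mem_iUnion.2 ⟨n - l, by rw [Nat.sub_add_cancel hn]; exact hp⟩

theorem null_ev {A : ℕ → Set Y} (h : Tendsto (fun l => ν (A l)) atTop (𝓝 0)) :
    ν {p | ∀ᶠ m in atTop, p ∈ A m} = 0 := by
  refine le_antisymm (ENNReal.le_of_forall_pos_le_add fun ε hε _ => ?_) zero_le
  rw [zero_add]
  exact meas_ev_le ((ENNReal.tendsto_nhds_zero.1 h) ε (by exact_mod_cast hε))

theorem Appr.aeE (h : Appr ν S q J g R) : ∀ᵐ p ∂ν, ∃ l, ∀ n ≥ l, p ∈ g n := by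
  refine measure_mono_null (fun p hp => ?_) (null_ev h.tE)
  exact Eventually.of_forall fun l hl => hp ⟨l, hl⟩

theorem Appr.bad (h : Appr ν S q J g R) (hd : ∀ n, q n ∣ q (n + 1)) (l : ℕ) :
    ν {p | J (l + 1) (S p) ≠ J (l + 1) p + 1} ≤ 3 * ν {p | ∀ n ≥ l, p ∈ g n}ᶜ := by
  set E := {p | ∀ n ≥ l, p ∈ g n} with hE
  have hs : {p | J (l + 1) (S p) ≠ J (l + 1) p + 1} ⊆
      (Eᶜ ∪ S ⁻¹' Eᶜ) ∪ {p | ∀ᶠ m in atTop, p ∈ R m ⁻¹' Eᶜ} := by
    intro p hp
    by_contra hc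
    simp only [mem_union, mem_compl_iff, mem_preimage, not_or, not_not, mem_ofPred_eq,
      not_eventually] at hc
    obtain ⟨⟨h1, h2⟩, h3⟩ := hc
    obtain ⟨m, m1, m2, m3⟩ :=
      (h3.and_eventually ((h.loc l p (h2 l le_rfl)).and (eventually_ge_atTop (l + 1)))).exists
    apply hp
    have a1 := compat_from hd (a := fun n => J n (R m p)) (fun n hn => h.cp n _ (m1 n hn))
      (le_refl (l + 1)) (Nat.le_succ l) m3
    have a2 := compat_from hd (a := fun n => J n p) (fun n hn => h.cp n _ (h1 n hn))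
      (le_refl (l + 1)) (Nat.le_succ l) m3
    simp only [ZMod.cast_id] at a1 a2
    rw [← m2, ← a1, h.eqv, ZMod.cast_add (dvd_le hd m3), a2, ZMod.cast_one (dvd_le hd m3)]
  have m := (h.mE l).compl.nullMeasurableSet (μ := ν)
  calc _ ≤ _ := measure_mono hs
    _ ≤ ν Eᶜ + ν (S ⁻¹' Eᶜ) + ν {p | ∀ᶠ m in atTop, p ∈ R m ⁻¹' Eᶜ} :=
      (measure_union_le _ _).trans (add_le_add_left (measure_union_le _ _) _)
    _ ≤ ν Eᶜ + ν Eᶜ + ν Eᶜ := add_le_add (by rw [h.mS.measure_preimage m])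
      (meas_ev_le (Eventually.of_forall fun n => ((h.mR n).measure_preimage m).le))
    _ = _ := by ring

theorem Appr.freq (h : Appr ν S q J g R) (hd : ∀ n, q n ∣ q (n + 1)) :
    ∀ᵐ p ∂ν, ∃ᶠ l in atTop, J (l + 1) (S p) = J (l + 1) p + 1 := by
  have h1 : Tendsto (fun l => ν {p | J (l + 1) (S p) ≠ J (l + 1) p + 1}) atTop (𝓝 0) := by
    refine tendsto_of_tendsto_of_tendsto_of_le_of_le tendsto_const_nhds ?_ (fun _ => zero_le)
      (h.bad hd)
    simpa using ENNReal.Tendsto.const_mul (a := 3) h.tE (Or.inr (by simp))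
  refine measure_mono_null (fun p hp => ?_) (null_ev h1)
  simpa using hp

theorem Appr.odo (h : Appr ν S q J g R) (hd : ∀ n, q n ∣ q (n + 1)) :
    ∃ π, IsOdometer ν S q π := by
  classical
  have tot : ∀ p, ∃ l, (∀ n ≥ l, p ∈ g n) ∨ ¬ ∃ l, ∀ n ≥ l, p ∈ g n := by
    intro p
    by_cases hp : ∃ l, ∀ n ≥ l, p ∈ g n
    · exact hp.imp fun _ => Or.inl
    · exact ⟨0, Or.inr hp⟩
  set π : ∀ n, Y → ZMod (q n) := fun n p => ZMod.cast (J (Nat.find (tot p) + n) p) with hπ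
  have key : ∀ p, (∃ l, ∀ n ≥ l, p ∈ g n) → ∃ l, (∀ n ≥ l, p ∈ g n) ∧
      ∀ n m, l + n ≤ m → π n p = ZMod.cast (J m p) := by
    intro p hp
    have h1 := (Nat.find_spec (tot p)).resolve_right (not_not.2 hp)
    exact ⟨_, h1, fun n m hm => (compat_from hd (a := fun n => J n p)
      (fun n hn => h.cp n _ (h1 n hn)) (Nat.le_add_left _ _) (Nat.le_add_right _ _) hm).symm⟩
  refine ⟨π, fun n => ?_, fun n => ?_, fun n => ?_, {p | ∃ l, ∀ n ≥ l, p ∈ g n}, h.aeE, ?_⟩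
  · refine Measurable.find (f := fun l p => (ZMod.cast (J (l + n) p) : ZMod (q n)))
      (fun l => Measurable.comp measurable_from_top (h.mJ _)) (fun l => ?_) tot
    refine (h.mE l).union (MeasurableSet.compl ?_)
    have : {p | ∃ l, ∀ n ≥ l, p ∈ g n} = ⋃ l, {p | ∀ n ≥ l, p ∈ g n} := by ext p; simp
    have h2 := MeasurableSet.iUnion h.mE
    rw [← this] at h2
    exact h2
  · filter_upwards [h.aeE, h.mS.quasiMeasurePreserving.ae h.aeE, h.freq hd] with p h1 h2 h3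
    obtain ⟨l1, -, k1⟩ := key p h1
    obtain ⟨l2, -, k2⟩ := key _ h2
    obtain ⟨m, m1, m2⟩ := (h3.and_eventually (eventually_ge_atTop (l1 + l2 + n))).exists
    have : q n ∣ q (m + 1) := dvd_le hd (by omega)
    rw [k1 n (m + 1) (by omega), k2 n (m + 1) (by omega), m1, ZMod.cast_add this,
      ZMod.cast_one this]
  · filter_upwards [h.aeE] with p h1
    obtain ⟨l, -, k⟩ := key p h1
    rw [k n (l + n + 1) (by omega), k (n + 1) (l + n + 1) (by omega),
      cast_cast' (hd n) (dvd_le hd (by omega))]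
  · intro p hp p' hp' e
    obtain ⟨l, k0, k⟩ := key p hp
    obtain ⟨l', k0', k'⟩ := key p' hp'
    refine h.inj (l + l') p p' (fun n hn => k0 n (by omega)) (fun n hn => k0' n (by omega))
      fun n hn => ?_
    have a1 := compat_from hd (a := fun n => J n p) (fun n hn => h.cp n _ (k0 n hn))
      (le_refl n) (show l ≤ n by omega) (show n ≤ l + l' + n by omega)
    have a2 := compat_from hd (a := fun n => J n p') (fun n hn => h.cp n _ (k0' n hn))
      (le_refl n) (show l' ≤ n by omega) (show n ≤ l + l' + n by omega)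
    simp only [ZMod.cast_id] at a1 a2
    rw [← a1, ← a2, ← k n _ (by omega), ← k' n _ (by omega), e]

end

end Vale.Agent.P109O
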