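import Vale.Agent.P109O.Small
import Vale.Agent.P109O.Gadget
import Vale.Agent.P109O.Iso

open MeasureTheory Filter Topology Set
open scoped ContDiff

namespace Vale.Agent.P109O

noncomputable def dl (n : ℕ) : ℝ := (1 / 2) ^ (n + 1)

theorem dl_pos (n : ℕ) : 0 < dl n := by unfold dl; positivity

theorem dl_lt (n : ℕ) : dl n < 1 := pow_lt_one₀ (by norm_num) (by norm_num) (by omega)

theorem dl_anti (n : ℕ) : dl (n + 1) ≤ dl n :=
  pow_le_pow_of_le_one (by norm_num) (by norm_num) (by omega)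

noncomputable def vv (q : ℕ) : V := (0, 1 / (q : ℝ))

/-- one step of the construction -/
structure Step (n q q' : ℕ) (a a' : Cj) : Prop where
  rel : ∀ z, good q q' (dl n) (a'.g z) → a.g z =
    ((a'.g z).2 - (cc q (a'.g z).1 : ℝ) / q',
      (a'.g z).1 + ((⌊q' * (a'.g z).2⌋ - cc q (a'.g z).1 : ℤ) : ℝ) / q)
  sm1 : ∀ j ≤ n, ∀ z,
    ‖iteratedFDeriv ℝ j (fun z => a'.tr (vv q') z - a.tr (vv q) z) z‖ ≤ (1 / 2 : ℝ) ^ n
  sm2 : ∀ j ≤ n, ∀ z,
    ‖iteratedFDeriv ℝ j (fun z => a'.tr (-vv q') z - a.tr (-vv q) z) z‖ ≤ (1 / 2 : ℝ) ^ n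
  gr : (1 + q : ℝ) * q ≤ dl n * q'

theorem small_tr (a : Cj) (u v : V) (n : ℕ) : ∀ᶠ t in 𝓝 (0 : ℝ), ∀ j ≤ n, ∀ z,
    ‖iteratedFDeriv ℝ j (fun z => a.tr (t • u + v) z - a.tr v z) z‖ ≤ (1 / 2 : ℝ) ^ n := by
  have := small (F := fun p : ℝ × V => a.tr (p.1 • u + v) p.2)
    (a.nf.smooth.comp ((a.ng.smooth.comp contDiff_snd).add
      ((contDiff_fst.smul contDiff_const).add contDiff_const)))
    (fun t z m => a.tr_io m _ z) n (ε := (1 / 2 : ℝ) ^ n) (by positivity)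
  simpa only [zero_smul, zero_add] using this

theorem ex_step {Q : ℕ → ℕ} (hQ : ∀ n, 0 < Q n) (hd : ∀ n, Q n ∣ Q (n + 1))
    (ht : Tendsto Q atTop atTop) (n k : ℕ) (a : Cj) :
    ∃ k', k < k' ∧ ∃ a', Step n (Q k) (Q k') a a' := by
  have hR : Tendsto (fun j => (Q j : ℝ)) atTop atTop := tendsto_natCast_atTop_atTop.comp ht
  have h0 : Tendsto (fun j => 1 / (Q j : ℝ)) atTop (𝓝 0) := hR.const_div_atTop 1
  have e1 := h0.eventually (small_tr a (1, 0) (vv (Q k)) n)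
  have e2 := h0.eventually (small_tr a (-1, 0) (-vv (Q k)) n)
  have e3 := (hR.const_mul_atTop (dl_pos n)).eventually_ge_atTop ((1 + Q k : ℝ) * Q k)
  obtain ⟨k', ⟨⟨h1, h2⟩, h3⟩, h4⟩ := (((e1.and e2).and e3).and (eventually_gt_atTop k)).exists
  obtain ⟨G, g1, g2⟩ := exG (hQ k) (hQ k') (dvd_le hd h4.le) (dl_pos n) (dl_lt n)
  have g3 : ∀ z, G.f (z + -vv (Q k')) = G.f z + -(1 / (Q k' : ℝ), 1 / (Q k : ℝ)) := by
    intro z
    have := g1 (z + -vv (Q k'))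
    rw [show z + -vv (Q k') + (0, 1 / (Q k' : ℝ)) = z from neg_add_cancel_right z _] at this
    rw [this]; abel
  refine ⟨k', h4, a.comp G, fun z hz => ?_, ?_, ?_, h3⟩
  · rw [← g2 _ hz]
    simp [Cj.comp, G.fg]
  · convert h1 using 8 with j _ z z
    simp only [Cj.tr, Cj.comp, Function.comp, vv, g1, G.fg]
    simp
  · convert h2 using 8 with j _ z z
    simp only [Cj.tr, Cj.comp, Function.comp, g3, G.fg]
    simp [vv]

theorem ex_seq {Q : ℕ → ℕ} (hQ : ∀ n, 0 < Q n) (hd : ∀ n, Q n ∣ Q (n + 1))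
    (ht : Tendsto Q atTop atTop) : ∃ (k : ℕ → ℕ) (h : ℕ → Cj), StrictMono k ∧
      ∀ n, Step n (Q (k n)) (Q (k (n + 1))) (h n) (h (n + 1)) := by
  choose k' hk a' ha using ex_step hQ hd ht
  let s : ℕ → ℕ × Cj := fun n => Nat.rec (0, Cj.one)
    (fun n p => (k' n p.1 p.2, a' n p.1 p.2)) n
  exact ⟨fun n => (s n).1, fun n => (s n).2, strictMono_nat_of_lt_succ fun n => hk n _ _,
    fun n => ha n _ _⟩

end Vale.Agent.P109O
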