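import Vale.Agent.P109O.Basic

open MeasureTheory Filter Topology Set
open scoped ContDiff

namespace Vale.Agent.P109O

theorem small_aux {D : ℝ × V → V} (hD : ContDiff ℝ ∞ D) (j : ℕ) :
    Continuous fun p : ℝ × V => iteratedFDeriv ℝ j (fun z => D (p.1, z)) p.2 := by
  have h1 : ∀ p : ℝ × V, iteratedFDeriv ℝ j (fun z => D (p.1, z)) p.2 =
      (iteratedFDeriv ℝ j D p).compContinuousLinearMap
        (fun _ => ContinuousLinearMap.inr ℝ ℝ V) := by
    intro p
    have h2 : (fun z => D (p.1, z)) =
        (fun y => D ((p.1, 0) + y)) ∘ ContinuousLinearMap.inr ℝ ℝ V := by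
      funext z; simp
    have h3 : ContDiff ℝ ∞ (fun y => D ((p.1, 0) + y)) := hD.comp (contDiff_const.add contDiff_id)
    rw [h2, ContinuousLinearMap.iteratedFDeriv_comp_right _ h3 _ (by exact_mod_cast le_top),
      iteratedFDeriv_comp_add_left]
    simp
  simp only [h1]
  exact (ContinuousMultilinearMap.compContinuousLinearMapL
    (fun _ : Fin j => ContinuousLinearMap.inr ℝ ℝ V)).continuous.comp
      (hD.continuous_iteratedFDeriv (by exact_mod_cast le_top))

theorem small {F : ℝ × V → V} (hF : ContDiff ℝ ∞ F)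
    (hper : ∀ t z m, F (t, z + io m) = F (t, z) + io m) (k : ℕ) {ε : ℝ} (hε : 0 < ε) :
    ∀ᶠ t in 𝓝 (0 : ℝ), ∀ j ≤ k, ∀ z,
      ‖iteratedFDeriv ℝ j (fun z => F (t, z) - F (0, z)) z‖ ≤ ε := by
  have key : ∀ j : ℕ, ∀ᶠ t in 𝓝 (0 : ℝ), ∀ z,
      ‖iteratedFDeriv ℝ j (fun z => F (t, z) - F (0, z)) z‖ ≤ ε := by
    intro j
    have hD : ContDiff ℝ ∞ (fun p : ℝ × V => F p - F (0, p.2)) :=
      hF.sub (hF.comp (contDiff_const.prodMk contDiff_snd))
    have hc := small_aux hD j
    have hK : IsCompact (Icc (0 : V) 1) := isCompact_Icc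
    have h1 := hK.eventually_forall_of_forall_eventually (x₀ := (0 : ℝ))
      (P := fun t z => ‖iteratedFDeriv ℝ j (fun z => F (t, z) - F (0, z)) z‖ < ε) (by
        intro y _
        apply hc.norm.continuousAt.eventually_lt continuousAt_const
        simpa using hε)
    filter_upwards [h1] with t ht z
    have h2 := ht (sec (pr z)) (by
      simp only [sec, pr, sg_coe]
      exact ⟨⟨Int.fract_nonneg _, Int.fract_nonneg _⟩,
        ⟨(Int.fract_lt_one _).le, (Int.fract_lt_one _).le⟩⟩)
    rw [sec_pr, ← iteratedFDeriv_comp_add_right] at h2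
    simp only [hper, add_sub_add_right_eq_sub] at h2
    exact h2.le
  have := (eventually_all_finset (Finset.range (k + 1))).2 (fun j _ => key j)
  filter_upwards [this] with t ht j hj
  exact ht j (Finset.mem_range.2 (by omega))

theorem limit_smooth {f : ℕ → V → V} (hf : ∀ n, ContDiff ℝ ∞ (f n))
    (h : ∀ n, ∀ j ≤ n, ∀ z,
      ‖iteratedFDeriv ℝ j (fun z => f (n + 1) z - f n z) z‖ ≤ (1 / 2 : ℝ) ^ n) :
    ∃ F : V → V, ContDiff ℝ ∞ F ∧ TendstoUniformly f F atTop := by
  refine ⟨fun z => f 0 z + ∑' n, (f (n + 1) z - f n z), (hf 0).add ?_, ?_⟩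
  · refine contDiff_tsum_of_eventually (N := ⊤) (v := fun _ n => (1 / 2 : ℝ) ^ n)
      (fun n => (hf (n + 1)).sub (hf n)) (fun _ _ => summable_geometric_two) ?_
    intro k _
    rw [Nat.cofinite_eq_atTop]
    filter_upwards [eventually_ge_atTop k] with n hn z using h n k hn z
  · have h1 := tendstoUniformly_tsum_nat (f := fun n z => f (n + 1) z - f n z)
      summable_geometric_two (fun n z => by simpa using h n 0 (Nat.zero_le _) z)
    rw [Metric.tendstoUniformly_iff] at h1 ⊢
    intro ε hε
    filter_upwards [h1 ε hε] with n hn z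
    have h2 := hn z
    rw [Finset.sum_range_sub (fun n => f n z), dist_eq_norm] at h2
    rw [dist_eq_norm]
    convert h2 using 2
    abel

/-- pointwise limits of area preserving maps of the torus -/
theorem mp_limit {S : ℕ → T2 → T2} {T : T2 → T2} (hS : ∀ n, MeasurePreserving (S n) volume volume)
    (hT : Measurable T) (h : ∀ p, Tendsto (fun n => S n p) atTop (𝓝 (T p))) :
    MeasurePreserving T volume volume := by
  refine ⟨hT, ?_⟩
  apply ext_of_forall_integral_eq_of_IsFiniteMeasure
  intro φ
  rw [integral_map hT.aemeasurable φ.continuous.aestronglyMeasurable]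
  have h1 : Tendsto (fun n => ∫ p, φ (S n p)) atTop (𝓝 (∫ p, φ (T p))) := by
    refine tendsto_integral_of_dominated_convergence (fun _ => ‖φ‖) ?_ (integrable_const _) ?_ ?_
    · exact fun n => (φ.continuous.measurable.comp (hS n).measurable).aestronglyMeasurable
    · exact fun n => Eventually.of_forall fun p => φ.norm_coe_le_norm _
    · exact Eventually.of_forall fun p => (φ.continuous.tendsto _).comp (h p)
  have h2 : ∀ n, ∫ p, φ (S n p) = ∫ p, φ p := by
    intro n
    rw [← integral_map (hS n).measurable.aemeasurable φ.continuous.aestronglyMeasurable,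
      (hS n).map_eq]
  simp only [h2] at h1
  exact (tendsto_nhds_unique tendsto_const_nhds h1).symm

end Vale.Agent.P109O
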