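import Vale.Agent.P109O.Arith
import Vale.Agent.P109O.Odo

open MeasureTheory Filter Topology Set
open scoped ContDiff

namespace Vale.Agent.P109O

theorem lim_io {f : ℕ → V → V} {F : V → V} (h : TendstoUniformly f F atTop) (m : ℤ × ℤ)
    (hf : ∀ n z, f n (z + io m) = f n z + io m) (z : V) : F (z + io m) = F z + io m := by
  have h1 := h.tendsto_at (z + io m)
  simp only [hf] at h1
  exact tendsto_nhds_unique h1 ((h.tendsto_at z).add_const _)

theorem lim_inv {f g : ℕ → V → V} {F G : V → V} (hf : TendstoUniformly f F atTop)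
    (hg : TendstoUniformly g G atTop) (hF : Continuous F) (h : ∀ n z, f n (g n z) = z) (z : V) :
    F (G z) = z := by
  have h1 := hf.tendsto_comp hF.continuousAt (hg.tendsto_at z)
  simp only [h] at h1
  exact (tendsto_nhds_unique tendsto_const_nhds h1).symm

theorem sum_bad : ∑' n, 3 * ENNReal.ofReal (2 * dl n) ≠ ⊤ := by
  rw [ENNReal.tsum_mul_left]
  refine ENNReal.mul_ne_top (by simp) ?_
  have : Summable fun n => 2 * dl n :=
    ((summable_nat_add_iff 1).2 summable_geometric_two).mul_left 2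
  rw [← ENNReal.ofReal_tsum_of_nonneg (fun n => by have := dl_pos n; positivity) this]
  exact ENNReal.ofReal_ne_top

theorem appr {q : ℕ → ℕ} (hq : ∀ n, 0 < q n) (hd : ∀ n, q n ∣ q (n + 1)) {h : ℕ → Cj}
    (hs : ∀ n, Step n (q n) (q (n + 1)) (h n) (h (n + 1))) {F : V → V} (hF : Continuous F)
    (hl : TendstoUniformly (fun n => (h n).tr (vv (q n))) F atTop) :
    Appr volume (ind F) q (fun n p => JZ (q n) (h n) (sec p))
      (fun n => {p | good (q n) (q (n + 1)) (dl n) ((h (n + 1)).g (sec p))})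
      (fun n => ind ((h n).tr (vv (q n)))) where
  mJ n := meas_JZ _ _
  mg n := meas_good _ _ _ _
  sm := ne_top_of_le_ne_top sum_bad (ENNReal.tsum_le_tsum fun n => vol_bad (hq _) (hq _) _ _)
  cp n p hp := (hs n).compat (hq n) (hd n) hp
  inj l p p' h1 h2 h3 := by rw [← pr_sec p, ← pr_sec p']; exact inj_lift hq hd hs h1 h2 h3
  mS := by
    have := prob1
    exact mp_limit (fun n => ((h n).nice_tr _).mp) (meas_ind hF)
      fun p => (cont_pr.tendsto _).comp (hl.tendsto_at _)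
  mR n := ((h n).nice_tr _).mp
  eqv n p := by simp only [ind, sec_pr, JZ_io, JZ_tr (hq n)]
  loc n p hp := by
    simp only [ind, sec_pr, mem_ofPred_eq, good_g_io] at hp
    simp only [ind, sec_pr, JZ_io]
    exact (hl.tendsto_at _).eventually (JZ_loc (dl_pos n) _ hp)

theorem odo_sub {X : Type*} [MeasurableSpace X] {μ : Measure X} {T : X → X} {Q : ℕ → ℕ}
    (hd : ∀ n, Q n ∣ Q (n + 1)) {k : ℕ → ℕ} (hk : StrictMono k)
    {π : ∀ n, X → ZMod (Q (k n))} (h : IsOdometer μ T (fun n => Q (k n)) π) :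
    IsOdometer μ T Q (fun n x => ZMod.cast (π n x)) := by
  obtain ⟨h1, h2, h3, X₁, h4, h5⟩ := h
  have d1 : ∀ n, Q n ∣ Q (k n) := fun n => dvd_le hd (hk.id_le n)
  have d2 : ∀ n, Q (k n) ∣ Q (k (n + 1)) := fun n => dvd_le hd (hk.monotone (Nat.le_succ n))
  refine ⟨fun n => Measurable.comp measurable_from_top (h1 n), fun n => ?_, fun n => ?_,
    X₁ ∩ {x | ∀ n, (ZMod.cast (π (n + 1) x) : ZMod (Q (k n))) = π n x}, ?_, ?_⟩
  · filter_upwards [h2 n] with x hx
    rw [hx, ZMod.cast_add (d1 n), ZMod.cast_one (d1 n)]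
  · filter_upwards [h3 n] with x hx
    rw [cast_cast' (hd n) (d1 _), ← hx, cast_cast' (d1 n) (d2 n)]
  · filter_upwards [h4, ae_all_iff.2 h3] with x a b using ⟨a, b⟩
  · intro x hx y hy e
    refine h5 x hx.1 y hy.1 fun n => ?_
    have a1 := compat_le (q := fun n => Q (k n)) d2 (a := fun n => π n x) hx.2 (show n ≤ k n from hk.id_le n)
    have a2 := compat_le (q := fun n => Q (k n)) d2 (a := fun n => π n y) hy.2 (show n ≤ k n from hk.id_le n)
    rw [← a1, ← a2]
    exact e (k n)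

theorem torus_model {Q : ℕ → ℕ} (hQ : ∀ n, 0 < Q n) (hd : ∀ n, Q n ∣ Q (n + 1))
    (ht : Tendsto Q atTop atTop) : ∃ F G : V → V, ContDiff ℝ ∞ F ∧ ContDiff ℝ ∞ G ∧ Per F ∧ Per G ∧
      (∀ z, F (G z) = z) ∧ (∀ z, G (F z) = z) ∧ MeasurePreserving (ind F) volume volume ∧
      ∃ π, IsOdometer volume (ind F) Q π := by
  obtain ⟨k, h, hk, hs⟩ := ex_seq hQ hd ht
  obtain ⟨F, f1, f2⟩ := limit_smooth (f := fun n => (h n).tr (vv (Q (k n))))
    (fun n => ((h n).nice_tr _).smooth) fun n => (hs n).sm1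
  obtain ⟨G, g1, g2⟩ := limit_smooth (f := fun n => (h n).tr (-vv (Q (k n))))
    (fun n => ((h n).nice_tr _).smooth) fun n => (hs n).sm2
  have d2 : ∀ n, Q (k n) ∣ Q (k (n + 1)) := fun n => dvd_le hd (hk.monotone (Nat.le_succ n))
  have A := appr (q := fun n => Q (k n)) (fun n => hQ _) d2 hs f1.continuous f2
  obtain ⟨π, hπ⟩ := A.odo d2
  refine ⟨F, G, f1, g1, fun m => ⟨m, lim_io f2 m fun n => (h n).tr_io m _⟩,
    fun m => ⟨m, lim_io g2 m fun n => (h n).tr_io m _⟩,
    lim_inv f2 g2 f1.continuous fun n => (h n).tr_tr _,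
    lim_inv g2 f2 g1.continuous fun n z => ?_, A.mS, _, odo_sub hd hk hπ⟩
  simpa using (h n).tr_tr (-vv (Q (k n))) z

end Vale.Agent.P109O
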